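import Vale.Agent.P233.N2.RA.IfHK
import Vale.Agent.P233.N2.H982.RH3

/-! P233, RCDA, blocks H3a and H0: for `K > 0` the space is bounded. -/

set_option linter.all false

open MeasureTheory Filter Topology Set
open scoped ENNReal NNReal

universe u

namespace Vale.Agent.P233.N2.H982

open Vale.Agent.P233.N2.RA

theorem blk_H3a : Blk_H3a.{u} := by
  intro M _ _ _ _ _ m n K θ h p δ hδ φ hφ h0
  exact lc_int h hδ p hφ h0

variable {M : Type u} [MetricSpace M] [MeasurableSpace M] [BorelSpace M]
  {m : Measure M} {n : ℕ} {K : ℝ} {θ : M → ℝ}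

/-- (LC) tested with `δ - g` -/
theorem lc_self [SecondCountableTopology M] (h : NSp m n K θ) {δ : ℝ} (hδ : 0 < δ) (p : M) :
    IntegrableOn (fun x => ((n : ℝ) - 2 * K / 3 * gg p x) * (δ - gg p x)) {x | gg p x < δ} m ∧
    0 ≤ ∫ x in {x | gg p x < δ}, ((n : ℝ) - 2 * K / 3 * gg p x) * (δ - gg p x) ∂m := by
  have hC : IsDir (sob m) := h.isDir
  have hms := measurableSet_gg δ p
  have hwA := ww_A h.fin hδ.le p
  have h0 : 0 ≤ -cl m (ww δ p) := by
    rw [nonneg_iff_ae]
    filter_upwards [neg_ae (cl m (ww δ p)), ww_ae (m := m) hδ.le p] with x h1 h2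
    rw [h1, h2]
    linarith [ww_nonpos δ p x]
  have h1 := lc_int h hδ p (hC.neg_mem hwA.1) h0
  have hcongr : ∀ᵐ x ∂(m.restrict {x | gg p x < δ}),
      ((n : ℝ) - 2 * K / 3 * gg p x) * (-cl m (ww δ p) : M →ₘ[m] ℝ) x
        = ((n : ℝ) - 2 * K / 3 * gg p x) * (δ - gg p x) := by
    rw [ae_restrict_iff' hms]
    filter_upwards [neg_ae (cl m (ww δ p)), ww_ae (m := m) hδ.le p] with x a1 a2 hx
    rw [a1, a2, ww_of_lt (by exact hx)]
    ring
  constructor
  · exact (lc_integrable h.fin _ _ δ p (hC.memLp _ (hC.neg_mem hwA.1))).congr hcongr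
  · rw [← integral_congr_ae hcongr]
    refine le_trans ?_ h1
    rw [hC.Γ_neg_right hwA.1 hwA.1, I_neg, neg_neg]
    exact hC.E_nonneg hwA.1

/-- mass outside of a large ball, `K > 0` -/
theorem mass_far [SecondCountableTopology M] (h : NSp m n K θ) (hK : 0 < K) (p : M) :
    m {x | 27 * n / (2 * K) ≤ gg p x} ≤ ENNReal.ofReal (1 / 4) * m {x | gg p x < 27 * n / (2 * K)} := by
  set b : ℝ := 27 * n / (2 * K) with hb
  have hn : (0 : ℝ) < n := by exact_mod_cast h.n_pos
  have hb0 : 0 < b := by positivity
  have hKb : 2 * K / 3 * b = 9 * n := by rw [hb]; field_simp; ring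
  have hfin := measure_gg_lt h.fin
  -- finite pieces
  have key : ∀ δ : ℝ, 2 * b < δ → m {x | b ≤ gg p x ∧ gg p x < δ / 2}
      ≤ ENNReal.ofReal (1 / 4) * m {x | gg p x < b} := by
    intro δ hδ
    have hδ0 : 0 < δ := by linarith
    obtain ⟨h1, h2⟩ := lc_self h hδ0 p
    set A : Set M := {x | gg p x < b} with hA
    set B : Set M := {x | b ≤ gg p x ∧ gg p x < δ / 2} with hB
    have hAm : MeasurableSet A := measurableSet_gg b p
    have hBm : MeasurableSet B :=
      (measurableSet_le measurable_const (measurable_gg p)).inter (measurableSet_gg _ p)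
    have hBf : m B < ∞ := (measure_mono (fun x hx => hx.2)).trans_lt (hfin (δ / 2) p)
    have hAf : m A < ∞ := hfin b p
    have hSm := measurableSet_gg δ p
    have i1 : Integrable (A.indicator fun _ => (n : ℝ) * δ) m :=
      (integrable_indicator_iff hAm).2 (integrableOn_const hAf.ne)
    have i2 : Integrable (B.indicator fun _ => 4 * (n : ℝ) * δ) m :=
      (integrable_indicator_iff hBm).2 (integrableOn_const hBf.ne)
    have h3 : ∫ x in {x | gg p x < δ}, ((n : ℝ) - 2 * K / 3 * gg p x) * (δ - gg p x) ∂m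
        ≤ ∫ x, (A.indicator (fun _ => (n : ℝ) * δ) x - B.indicator (fun _ => 4 * (n : ℝ) * δ) x) ∂m := by
      rw [← integral_indicator hSm]
      refine integral_mono ((integrable_indicator_iff hSm).2 h1) (i1.sub i2) fun x => ?_
      have hg := gg_nonneg p x
      have hK' : 0 < 2 * K / 3 := by positivity
      by_cases hx1 : gg p x < b
      · have hxB : x ∉ B := fun hx => absurd hx.1 (not_le.2 hx1)
        have hxS : x ∈ {x | gg p x < δ} := by
          show gg p x < δ
          linarith
        simp only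
        rw [indicator_of_mem hxS, indicator_of_mem (show x ∈ A from hx1), indicator_of_notMem hxB,
          sub_zero]
        have e1 : (n : ℝ) - 2 * K / 3 * gg p x ≤ n := by
          have := mul_nonneg hK'.le hg
          linarith
        have e2 : 0 ≤ δ - gg p x := by linarith
        calc ((n : ℝ) - 2 * K / 3 * gg p x) * (δ - gg p x) ≤ n * (δ - gg p x) :=
              mul_le_mul_of_nonneg_right e1 e2
          _ ≤ n * δ := mul_le_mul_of_nonneg_left (by linarith) hn.le
      · have hxA : x ∉ A := hx1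
        have hx2 : b ≤ gg p x := not_lt.1 hx1
        have e1 : (n : ℝ) - 2 * K / 3 * gg p x ≤ -(8 * n) := by
          have := mul_le_mul_of_nonneg_left hx2 hK'.le
          linarith
        simp only
        rw [indicator_of_notMem hxA, zero_sub]
        by_cases hx3 : gg p x < δ / 2
        · have hxB : x ∈ B := ⟨hx2, hx3⟩
          have hxS : x ∈ {x | gg p x < δ} := by
            show gg p x < δ
            linarith
          rw [indicator_of_mem hxS, indicator_of_mem hxB]
          have e2 : δ / 2 ≤ δ - gg p x := by linarith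
          have e3 : ((n : ℝ) - 2 * K / 3 * gg p x) * (δ - gg p x) ≤ -(8 * n) * (δ - gg p x) :=
            mul_le_mul_of_nonneg_right e1 (by linarith)
          have e4 : 8 * (n : ℝ) * (δ / 2) ≤ 8 * n * (δ - gg p x) :=
            mul_le_mul_of_nonneg_left e2 (by positivity)
          linarith
        · have hxB : x ∉ B := fun hx => hx3 hx.2
          rw [indicator_of_notMem hxB, neg_zero]
          by_cases hx4 : gg p x < δ
          · rw [indicator_of_mem (by exact hx4)]
            exact mul_nonpos_of_nonpos_of_nonneg (by linarith) (by linarith)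
          · rw [indicator_of_notMem (by exact hx4)]
    rw [integral_sub i1 i2, integral_indicator hAm, integral_indicator hBm, setIntegral_const,
      setIntegral_const, smul_eq_mul, smul_eq_mul] at h3
    have h4 : m.real B ≤ 1 / 4 * m.real A := by
      have h5 : 0 ≤ m.real A * (n * δ) - m.real B * (4 * n * δ) := h2.trans h3
      have h6 : 0 < (n : ℝ) * δ := by positivity
      have h7 : 0 ≤ (n * δ) * (m.real A - 4 * m.real B) := by linarith
      have h8 := nonneg_of_mul_nonneg_right h7 h6
      linarith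
    rw [← ENNReal.ofReal_toReal hBf.ne, ← ENNReal.ofReal_toReal hAf.ne,
      ← ENNReal.ofReal_mul (by norm_num)]
    exact ENNReal.ofReal_le_ofReal h4
  -- the union
  have hU : {x | b ≤ gg p x} = ⋃ k : ℕ, {x | b ≤ gg p x ∧ gg p x < (2 * b + 1 + k) / 2} := by
    ext x
    simp only [mem_setOf_eq, mem_iUnion]
    constructor
    · intro hx
      obtain ⟨k, hk⟩ := exists_nat_gt (2 * gg p x)
      exact ⟨k, hx, by linarith⟩
    · rintro ⟨k, hk, -⟩
      exact hk
  have hmono : Monotone fun k : ℕ => {x | b ≤ gg p x ∧ gg p x < (2 * b + 1 + (k : ℝ)) / 2} := by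
    intro k l hkl x hx
    have : (k : ℝ) ≤ l := by exact_mod_cast hkl
    exact ⟨hx.1, by have := hx.2; simp only [mem_setOf_eq] at *; linarith⟩
  rw [hU, hmono.measure_iUnion]
  refine iSup_le fun k => key (2 * b + 1 + k) ?_
  have : (0 : ℝ) ≤ k := k.cast_nonneg
  linarith

theorem finite_of_pos [SecondCountableTopology M] [Nonempty M] (h : NSp m n K θ) (hK : 0 < K) :
    m univ < ∞ := by
  obtain ⟨p⟩ := ‹Nonempty M›
  have h1 : (univ : Set M) ⊆ {x | 27 * n / (2 * K) ≤ gg p x} ∪ {x | gg p x < 27 * n / (2 * K)} := by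
    intro x _
    exact le_or_gt (27 * (n : ℝ) / (2 * K)) (gg p x)
  refine (measure_mono h1).trans_lt ((measure_union_le _ _).trans_lt ?_)
  have h2 := measure_gg_lt h.fin (27 * n / (2 * K)) p
  refine ENNReal.add_lt_top.2 ⟨(mass_far h hK p).trans_lt ?_, h2⟩
  exact ENNReal.mul_lt_top ENNReal.ofReal_lt_top h2

theorem bounded_of_pos [SecondCountableTopology M] (h : NSp m n K θ) (hK : 0 < K) (x y : M) :
    dist x y ≤ 2 * √(2 * (27 * n / (2 * K))) := by
  haveI : Nonempty M := ⟨x⟩
  haveI := h.full
  have hfin := finite_of_pos h hK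
  set b : ℝ := 27 * n / (2 * K) with hb
  have hpos : 0 < m univ := isOpen_univ.measure_pos m ⟨x, mem_univ x⟩
  have hq : ∀ p : M, m {z | b ≤ gg p z} ≤ ENNReal.ofReal (1 / 4) * m univ := fun p =>
    (mass_far h hK p).trans (by gcongr; exact subset_univ _)
  have hne : ({z | gg x z < b} ∩ {z | gg y z < b}).Nonempty := by
    by_contra hcon
    rw [not_nonempty_iff_eq_empty] at hcon
    have h1 : (univ : Set M) ⊆ {z | b ≤ gg x z} ∪ {z | b ≤ gg y z} := by
      intro z _
      by_contra hz
      simp only [mem_union, mem_setOf_eq, not_or, not_le] at hz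
      have : z ∈ ({z | gg x z < b} ∩ {z | gg y z < b}) := ⟨hz.1, hz.2⟩
      rw [hcon] at this
      exact this
    have h2 : m univ ≤ ENNReal.ofReal (1 / 4) * m univ + ENNReal.ofReal (1 / 4) * m univ :=
      (measure_mono h1).trans ((measure_union_le _ _).trans (add_le_add (hq x) (hq y)))
    rw [← add_mul, ← ENNReal.ofReal_add (by norm_num) (by norm_num)] at h2
    have h3 : ENNReal.ofReal (1 / 4 + 1 / 4) * m univ < 1 * m univ := by
      refine ENNReal.mul_lt_mul_left hpos.ne' hfin.ne ?_
      rw [← ENNReal.ofReal_one]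
      exact (ENNReal.ofReal_lt_ofReal_iff one_pos).2 (by norm_num)
    rw [one_mul] at h3
    exact absurd h2 (not_le.2 h3)
  obtain ⟨z, hz1, hz2⟩ := hne
  have e : ∀ p : M, gg p z < b → dist z p ≤ √(2 * b) := by
    intro p hp
    unfold gg at hp
    exact Real.le_sqrt_of_sq_le (by linarith)
  have h1 := e x hz1
  have h2 := e y hz2
  have h3 := dist_triangle_left x y z
  linarith

theorem blk_H0 : Blk_H0.{u} := by
  intro M _ _ _ _ _ m n K θ h hK
  exact ⟨_, fun x y => bounded_of_pos h hK x y⟩

end Vale.Agent.P233.N2.H982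

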