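import Vale.Agent.P233.N2.H368.RAH1
import Vale.Agent.P233.N2.H982.RH0
import Vale.Agent.P233.N2.H982.RH2
import Vale.Agent.P233.N2.H982.RH3b

/-! P233, RCDA: the blocks H0 - H3b, unconditional. -/

set_option linter.all false

universe u

namespace Vale.Agent.P233.N2.H982

open Vale.Agent.P233.N2.RA

theorem blk_H1 : Blk_H1.{u} := H368.RH1.blk_H1 blk_H3a

theorem blk_H2b : Blk_H2b.{u} := blk_H2b_of blk_H1

theorem blk_H3b : Blk_H3b.{u} := blk_H3b_of blk_H1

end Vale.Agent.P233.N2.H982
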